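import Mathlib

/-!
# S0010, assembly block AS4 (steps A7 + A8 of notes/s0010/PLAN.md)

Abstract version over arbitrary subfields `F ≤ K`, `F' ≤ L` (in the application `F = K^p`, `F' = L^p`).
Given a "representative map" `t : K → L` (multiplicative up to `F'ˣ`, detecting `F`), and an additive map
`α : K → L` with `t u ~ α u` for `u ≠ 0`, `α 1 = 1`, `α F ⊆ F'`, and `K ≠ F`, the map `α` is multiplicative,
hence a ring homomorphism.
-/

set_option autoImplicit false

namespace Crest.Agent.Helper9.S0010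

variable {K L : Type*} [Field K] [Field L]

/-- `a` and `b` differ by a nonzero factor from the subfield `F'`. -/
def SRel (F' : Subfield L) (a b : L) : Prop := ∃ e ∈ F', e ≠ 0 ∧ a = e * b

/-- Uniqueness lemma: if `z ∉ F'`, `z' = a z` and `z' + 1 = b (z + 1)` with `a, b ∈ F'` then `z' = z`. -/
theorem uniq_of_two_rel (F' : Subfield L) {z z' a b : L} (hz : z ∉ F') (ha : a ∈ F') (hb : b ∈ F')
    (h1 : z' = a * z) (h2 : z' + 1 = b * (z + 1)) : z' = z := by
  have h3 : (a - b) * z = b - 1 := by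
    have : a * z + 1 = b * (z + 1) := by rw [← h1]; exact h2
    linear_combination this
  by_cases hab : a = b
  · subst hab
    have hb1 : a = 1 := by
      have : (0 : L) = a - 1 := by rw [← h3]; ring
      linear_combination -this
    rw [h1, hb1, one_mul]
  · exfalso
    apply hz
    have hne : a - b ≠ 0 := sub_ne_zero.mpr hab
    have hzeq : z = (b - 1) / (a - b) := by
      field_simp
      linear_combination h3
    rw [hzeq]
    exact F'.div_mem (F'.sub_mem hb F'.one_mem) (F'.sub_mem ha hb)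

section main

variable (F : Subfield K) (F' : Subfield L) (t α : K → L)
  (ne_zero : ∀ u, u ≠ 0 → t u ≠ 0)
  (mul : ∀ u v, u ≠ 0 → v ≠ 0 → SRel F' (t (u * v)) (t u * t v))
  (pow_iff : ∀ u, u ≠ 0 → (t u ∈ F' ↔ u ∈ F))
  (hnp : ∃ u0 : K, u0 ∉ F)
  (hadd : ∀ x y, α (x + y) = α x + α y)
  (hrel : ∀ u, u ≠ 0 → SRel F' (t u) (α u))
  (h1 : α 1 = 1)
  (hF : ∀ c ∈ F, α c ∈ F')

include hadd in
theorem as4_map_zero : α 0 = 0 := by
  have h := hadd 0 0
  rw [add_zero] at h
  linear_combination -h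

include ne_zero hrel in
theorem as4_ne_zero {u : K} (hu : u ≠ 0) : α u ≠ 0 := by
  obtain ⟨e, -, -, he⟩ := hrel u hu
  intro h0
  rw [h0, mul_zero] at he
  exact ne_zero u hu he

include pow_iff hrel in
theorem as4_mem_iff {u : K} (hu : u ≠ 0) : α u ∈ F' ↔ u ∈ F := by
  obtain ⟨e, heF, he0, he⟩ := hrel u hu
  rw [← pow_iff u hu, he]
  constructor
  · intro h; exact F'.mul_mem heF h
  · intro h
    have : α u = e⁻¹ * (e * α u) := by field_simp
    rw [this]; exact F'.mul_mem (F'.inv_mem heF) h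

include mul hrel in
/-- `α (u v) ~ α u α v`. -/
theorem as4_rel_mul {u v : K} (hu : u ≠ 0) (hv : v ≠ 0) :
    ∃ e ∈ F', e ≠ 0 ∧ α (u * v) = e * (α u * α v) := by
  obtain ⟨e1, h1F, h10, he1⟩ := hrel (u * v) (mul_ne_zero hu hv)
  obtain ⟨e2, h2F, h20, he2⟩ := mul u v hu hv
  obtain ⟨e3, h3F, h30, he3⟩ := hrel u hu
  obtain ⟨e4, h4F, h40, he4⟩ := hrel v hv
  refine ⟨e1⁻¹ * (e2 * (e3 * e4)), F'.mul_mem (F'.inv_mem h1F) (F'.mul_mem h2F (F'.mul_mem h3F h4F)),
    mul_ne_zero (inv_ne_zero h10) (mul_ne_zero h20 (mul_ne_zero h30 h40)), ?_⟩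
  have h : e1 * α (u * v) = e2 * ((e3 * α u) * (e4 * α v)) := by
    rw [← he1, he2, he3, he4]
  field_simp
  linear_combination h

include ne_zero mul hrel hF in
/-- `α (c u) ~ α u` for `c ∈ Fˣ`. -/
theorem as4_rel_smul {c u : K} (hc : c ∈ F) (hc0 : c ≠ 0) (hu : u ≠ 0) :
    ∃ e ∈ F', e ≠ 0 ∧ α (c * u) = e * α u := by
  obtain ⟨e, heF, he0, he⟩ := as4_rel_mul F' t α mul hrel hc0 hu
  refine ⟨e * α c, F'.mul_mem heF (hF c hc), mul_ne_zero he0 (as4_ne_zero F' t α ne_zero hrel hc0), ?_⟩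
  rw [he]; ring

include ne_zero mul pow_iff hadd hrel h1 hF in
/-- (7a) `α (c u) * α c⁻¹ = α u` for `c ∈ Fˣ`, `u ∉ F`. -/
theorem as4_7a {c u : K} (hc : c ∈ F) (hc0 : c ≠ 0) (hu : u ∉ F) :
    α (c * u) * α c⁻¹ = α u := by
  have hu0 : u ≠ 0 := fun h => hu (h ▸ F.zero_mem)
  have hci : c⁻¹ ∈ F := F.inv_mem hc
  have hci0 : c⁻¹ ≠ 0 := inv_ne_zero hc0
  set d := α c⁻¹ with hd
  have hdF : d ∈ F' := hF _ hci
  have hd0 : d ≠ 0 := as4_ne_zero F' t α ne_zero hrel hci0
  have hcu0 : c * u ≠ 0 := mul_ne_zero hc0 hu0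
  have hcuF : c * u ∉ F := by
    intro h
    apply hu
    have : u = c⁻¹ * (c * u) := by field_simp
    rw [this]; exact F.mul_mem hci h
  have hzF : α (c * u) ∉ F' := fun h => hcuF ((as4_mem_iff F F' t α pow_iff hrel hcu0).mp h)
  -- first relation
  obtain ⟨e, heF, he0, he⟩ := as4_rel_smul F F' t α ne_zero mul hrel hF hc hc0 hu0
  -- second relation
  have hu1 : u + c⁻¹ ≠ 0 := by
    intro h
    apply hu
    have : u = -c⁻¹ := by linear_combination h
    rw [this]; exact F.neg_mem hci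
  obtain ⟨e', he'F, he'0, he'⟩ := as4_rel_smul F F' t α ne_zero mul hrel hF hc hc0 hu1
  have hz1 : α (c * u) + 1 = e' * (α u + d) := by
    have : c * (u + c⁻¹) = c * u + 1 := by field_simp
    rw [this, hadd, h1] at he'
    rw [he', hadd]
  have key : α u / d = α (c * u) := by
    apply uniq_of_two_rel F' hzF (a := (d * e)⁻¹) (b := (d * e')⁻¹)
      (F'.inv_mem (F'.mul_mem hdF heF)) (F'.inv_mem (F'.mul_mem hdF he'F))
    · rw [he]; field_simp
    · rw [hz1]; field_simp
  rw [← key]; field_simp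

include ne_zero mul pow_iff hnp hadd hrel h1 hF in
/-- (7b) `α c * α c⁻¹ = 1` for `c ∈ Fˣ`. -/
theorem as4_7b {c : K} (hc : c ∈ F) (hc0 : c ≠ 0) : α c * α c⁻¹ = 1 := by
  obtain ⟨u, hu⟩ := hnp
  have hu1 : u + 1 ∉ F := by
    intro h
    apply hu
    have : u = (u + 1) - 1 := by ring
    rw [this]; exact F.sub_mem h F.one_mem
  have ha := as4_7a F F' t α ne_zero mul pow_iff hadd hrel h1 hF hc hc0 hu
  have hb := as4_7a F F' t α ne_zero mul pow_iff hadd hrel h1 hF hc hc0 hu1
  have : c * (u + 1) = c * u + c := by ring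
  rw [this, hadd, hadd, h1] at hb
  linear_combination hb - ha

include ne_zero mul pow_iff hnp hadd hrel h1 hF in
/-- (7c) `α (c u) = α c * α u` for `c ∈ Fˣ`, `u ∉ F`. -/
theorem as4_7c {c u : K} (hc : c ∈ F) (hc0 : c ≠ 0) (hu : u ∉ F) :
    α (c * u) = α c * α u := by
  have ha := as4_7a F F' t α ne_zero mul pow_iff hadd hrel h1 hF hc hc0 hu
  have hb := as4_7b F F' t α ne_zero mul pow_iff hnp hadd hrel h1 hF hc hc0
  have hd0 : α c⁻¹ ≠ 0 := as4_ne_zero F' t α ne_zero hrel (inv_ne_zero hc0)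
  have : (α (c * u) - α c * α u) * α c⁻¹ = 0 := by linear_combination ha - α u * hb
  rcases mul_eq_zero.mp this with h | h
  · linear_combination h
  · exact absurd h hd0

include ne_zero mul pow_iff hnp hadd hrel h1 hF in
/-- (7e) `α (c u) = α c * α u` for `c ∈ F`, all `u`. -/
theorem as4_7e {c : K} (hc : c ∈ F) (u : K) : α (c * u) = α c * α u := by
  have h0 : α 0 = 0 := as4_map_zero α hadd
  by_cases hc0 : c = 0
  · subst hc0; simp [h0]
  by_cases hu : u ∈ F
  · by_cases hu0 : u = 0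
    · subst hu0; simp [h0]
    obtain ⟨w, hw⟩ := hnp
    have hw0 : w ≠ 0 := fun h => hw (h ▸ F.zero_mem)
    have huw : u * w ∉ F := by
      intro h
      apply hw
      have : w = u⁻¹ * (u * w) := by field_simp
      rw [this]; exact F.mul_mem (F.inv_mem hu) h
    have e1 := as4_7c F F' t α ne_zero mul pow_iff ⟨w, hw⟩ hadd hrel h1 hF (F.mul_mem hc hu)
      (mul_ne_zero hc0 hu0) hw
    have e2 := as4_7c F F' t α ne_zero mul pow_iff ⟨w, hw⟩ hadd hrel h1 hF hc hc0 huw
    have e3 := as4_7c F F' t α ne_zero mul pow_iff ⟨w, hw⟩ hadd hrel h1 hF hu hu0 hw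
    have hαw : α w ≠ 0 := as4_ne_zero F' t α ne_zero hrel hw0
    have : (α (c * u) - α c * α u) * α w = 0 := by
      have hassoc : c * u * w = c * (u * w) := by ring
      rw [hassoc] at e1
      linear_combination e2 + α c * e3 - e1
    rcases mul_eq_zero.mp this with h | h
    · linear_combination h
    · exact absurd h hαw
  · exact as4_7c F F' t α ne_zero mul pow_iff hnp hadd hrel h1 hF hc hc0 hu

include ne_zero mul pow_iff hnp hadd hrel h1 hF in
/-- **AS4 (A7 + A8)**: `α` is multiplicative. -/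
theorem as4_mul (u w : K) : α (u * w) = α u * α w := by
  have h0 : α 0 = 0 := as4_map_zero α hadd
  by_cases hu0 : u = 0
  · subst hu0; simp [h0]
  by_cases hw : w ∈ F
  · rw [mul_comm u w, as4_7e F F' t α ne_zero mul pow_iff hnp hadd hrel h1 hF hw u, mul_comm]
  · have hw0 : w ≠ 0 := fun h => hw (h ▸ F.zero_mem)
    have hw1 : w + 1 ∉ F := by
      intro h
      apply hw
      have : w = (w + 1) - 1 := by ring
      rw [this]; exact F.sub_mem h F.one_mem
    have hw10 : w + 1 ≠ 0 := fun h => hw1 (h ▸ F.zero_mem)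
    obtain ⟨e, heF, he0, he⟩ := as4_rel_mul F' t α mul hrel hu0 hw0
    obtain ⟨e', he'F, he'0, he'⟩ := as4_rel_mul F' t α mul hrel hu0 hw10
    have hαu : α u ≠ 0 := as4_ne_zero F' t α ne_zero hrel hu0
    have hαw : α w ∉ F' := fun h => hw ((as4_mem_iff F F' t α pow_iff hrel hw0).mp h)
    have hexp : u * (w + 1) = u * w + u := by ring
    rw [hexp, hadd, hadd, h1, he] at he'
    -- he' : e * (α u * α w) + α u = e' * (α u * (α w + 1))
    have h3 : (e - e') * α w = e' - 1 := by
      have : α u * ((e - e') * α w - (e' - 1)) = 0 := by linear_combination he'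
      rcases mul_eq_zero.mp this with h | h
      · exact absurd h hαu
      · linear_combination h
    by_cases hee : e = e'
    · have he1 : e' = 1 := by
        rw [hee] at h3
        have : (0 : L) = e' - 1 := by rw [← h3]; ring
        linear_combination -this
      rw [he, hee, he1, one_mul]
    · exfalso
      apply hαw
      have hne : e - e' ≠ 0 := sub_ne_zero.mpr hee
      have : α w = (e' - 1) / (e - e') := by
        field_simp
        linear_combination h3
      rw [this]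
      exact F'.div_mem (F'.sub_mem he'F F'.one_mem) (F'.sub_mem heF he'F)

include ne_zero mul pow_iff hnp hadd hrel h1 hF in
/-- **AS4**: `α` is (the underlying map of) a ring homomorphism. -/
theorem as4_ringHom : ∃ a : K →+* L, ∀ u, a u = α u :=
  ⟨{ toFun := α
     map_one' := h1
     map_mul' := as4_mul F F' t α ne_zero mul pow_iff hnp hadd hrel h1 hF
     map_zero' := as4_map_zero α hadd
     map_add' := hadd }, fun _ => rfl⟩

end main

end Crest.Agent.Helper9.S0010
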