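import Crest.Agent.Helper9.S0010.AS4
import Crest.Agent.Helper31.S0010.Deriv

/-!
# S0010, block AS4 in helper31's names (`pPow p`), relation written out
`Rel a b := ∃ e ∈ pPow p, e ≠ 0 ∧ a = e * b`.
-/

set_option autoImplicit false

namespace Crest.Agent.Helper9.S0010

open Crest.Agent.Helper31.S0010

variable {K L : Type*} [Field K] [Field L] (p : ℕ) [Fact p.Prime] [CharP K p] [CharP L p]

/-- **AS4 (A7 + A8), `pPow` form.** An additive `α : K → L` with `α 1 = 1`, `α (K^p) ⊆ L^p` and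
`th u ~ α u` (mod `L^p`-factors) for all `u ≠ 0`, where `th` is multiplicative mod `L^p`-factors and
detects `p`-th powers, is multiplicative. -/
theorem as4_mul_pPow (th α : K → L)
    (T1 : ∀ u, u ≠ 0 → th u ≠ 0)
    (T2 : ∀ u v, u ≠ 0 → v ≠ 0 →
      ∃ e ∈ pPow (L := L) p, e ≠ 0 ∧ th (u * v) = e * (th u * th v))
    (T3 : ∀ u, u ≠ 0 → (th u ∈ pPow (L := L) p ↔ u ∈ pPow (L := K) p))
    (hnp : ∃ u0 : K, u0 ∉ pPow (L := K) p)
    (hadd : ∀ x y, α (x + y) = α x + α y)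
    (hrel : ∀ u, u ≠ 0 → ∃ e ∈ pPow (L := L) p, e ≠ 0 ∧ th u = e * α u)
    (h1 : α 1 = 1)
    (hF : ∀ c ∈ pPow (L := K) p, α c ∈ pPow (L := L) p) (u w : K) :
    α (u * w) = α u * α w :=
  as4_mul (pPow (L := K) p) (pPow (L := L) p) th α T1 T2 T3 hnp hadd hrel h1 hF u w

/-- **AS4, ring-hom form.** -/
theorem as4_ringHom_pPow (th α : K → L)
    (T1 : ∀ u, u ≠ 0 → th u ≠ 0)
    (T2 : ∀ u v, u ≠ 0 → v ≠ 0 →
      ∃ e ∈ pPow (L := L) p, e ≠ 0 ∧ th (u * v) = e * (th u * th v))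
    (T3 : ∀ u, u ≠ 0 → (th u ∈ pPow (L := L) p ↔ u ∈ pPow (L := K) p))
    (hnp : ∃ u0 : K, u0 ∉ pPow (L := K) p)
    (hadd : ∀ x y, α (x + y) = α x + α y)
    (hrel : ∀ u, u ≠ 0 → ∃ e ∈ pPow (L := L) p, e ≠ 0 ∧ th u = e * α u)
    (h1 : α 1 = 1)
    (hF : ∀ c ∈ pPow (L := K) p, α c ∈ pPow (L := L) p) :
    ∃ a : K →+* L, (∀ u, a u = α u) ∧
      ∀ u, u ≠ 0 → ∃ e ∈ pPow (L := L) p, e ≠ 0 ∧ th u = e * a u := by
  obtain ⟨a, ha⟩ := as4_ringHom (pPow (L := K) p) (pPow (L := L) p) th α T1 T2 T3 hnp hadd hrel h1 hF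
  refine ⟨a, ha, fun u hu => ?_⟩
  rw [ha u]
  exact hrel u hu

end Crest.Agent.Helper9.S0010
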