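import Crest.Agent.Helper9.S0010.AS4
import Crest.Agent.Helper19.S0010.ASBasic

/-!
# S0010, track T1, block AS5 (= A7 + A8) in helper19's names

`alpha p s` is multiplicative and hence a ring homomorphism, from the statements of the earlier
blocks (bundled as explicit hypotheses in `Prior5`, with the texts of helper19's ASSpec).
-/

set_option autoImplicit false

namespace Crest.Agent.Helper9.S0010.AS5

open Crest.Agent.Helper19.S0010 Crest.Agent.Helper9.S0010

variable {K L : Type*} [Field K] [Field L] {p : ℕ} [Fact p.Prime] [CharP K p] [CharP L p]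

/-- The statements of AS2/AS3/AS4 that AS5 consumes (texts as in helper19's ASSpec). -/
structure Prior5 (p : ℕ) [Fact p.Prime] [CharP K p] [CharP L p] (s : K → L) : Prop where
  exists_notMem : ∃ f : K, f ∉ pPow K p
  tau_mem : ∀ {c : K}, c ∈ pPow K p → tau p s c ∈ pPow L p
  tau_one : tau p s 1 = 1
  prel_alpha : ∀ {u : K}, u ≠ 0 → PRel p (s u) (alpha p s u)
  alpha_add : ∀ u v : K, alpha p s (u + v) = alpha p s u + alpha p s v

variable {s : K → L}

theorem alpha_one_of (H : Prior5 p s) : alpha p s 1 = 1 := by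
  rw [alpha_of_mem p s (pPow K p).one_mem]; exact H.tau_one

theorem alpha_mem_of (H : Prior5 p s) {c : K} (hc : c ∈ pPow K p) : alpha p s c ∈ pPow L p := by
  rw [alpha_of_mem p s hc]; exact H.tau_mem hc

/-- **AS5 / A7 + A8**: `alpha` is multiplicative. -/
theorem alpha_mul_of (h : NormLine p s) (H : Prior5 p s) (u v : K) :
    alpha p s (u * v) = alpha p s u * alpha p s v :=
  as4_mul (pPow K p) (pPow L p) s (alpha p s) h.ne_zero h.mul h.pow_iff H.exists_notMem
    H.alpha_add (fun _ hu => H.prel_alpha hu) (alpha_one_of H) (fun _ hc => alpha_mem_of H hc) u v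

/-- **AS5**: the ring homomorphism. -/
theorem exists_ringHom_of (h : NormLine p s) (H : Prior5 p s) :
    ∃ α : K →+* L, ∀ u : K, u ≠ 0 → PRel p (s u) (α u) := by
  obtain ⟨a, ha⟩ := as4_ringHom (pPow K p) (pPow L p) s (alpha p s) h.ne_zero h.mul h.pow_iff
    H.exists_notMem H.alpha_add (fun _ hu => H.prel_alpha hu) (alpha_one_of H)
    (fun _ hc => alpha_mem_of H hc)
  refine ⟨a, fun u hu => ?_⟩
  rw [ha u]
  exact H.prel_alpha hu

/-
INTEGRATION (copy-paste; X := the namespace(s) where AS2/AS3/AS4 are real, e.g. helper19's / helper91's):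

theorem prior5_of (h : NormLine p s) : Prior5 p s where
  exists_notMem := X.NormLine.exists_notMem h
  tau_mem := fun hc => X.NormLine.tau_mem h hc
  tau_one := X.NormLine.tau_one h
  prel_alpha := fun hu => X.NormLine.prel_alpha h hu
  alpha_add := X.NormLine.alpha_add h

theorem NormLine.alpha_mul (h : NormLine p s) (u v : K) :
    alpha p s (u * v) = alpha p s u * alpha p s v := alpha_mul_of h (prior5_of h) u v

theorem NormLine.exists_ringHom (h : NormLine p s) :
    ∃ α : K →+* L, ∀ u : K, u ≠ 0 → PRel p (s u) (α u) := exists_ringHom_of h (prior5_of h)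
-/

end Crest.Agent.Helper9.S0010.AS5
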